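import Vale.Agent.Lib.P034G.General
import Vale.Agent.Lib.P064B.Main

/-!
P034 for the families generated by the copies of a graph of bounded maximum degree.
-/

namespace Vale.Agent.Lib.P034G

open Finset
open Vale.Agent.Results.P034.NestedIntersections (Covers cost IsFracCover fracCost)
open Vale.Agent.Lib.Helper7.P064M

open scoped Classical in
/-- The permutations `σ` with `S ⊆ E(σ H)` inject into the labelled copies in `H` of a graph
`F' ≤ H` with `|S|` edges (if there is at least one such permutation). -/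
theorem perm_count_le_labelled {n : ℕ} (H : SimpleGraph (Fin n)) (S : Finset (Sym2 (Fin n)))
    (σ0 : Equiv.Perm (Fin n))
    (hσ0' : (S : Set (Sym2 (Fin n))) ⊆ (H.map σ0.toEmbedding).edgeSet) :
    ∃ F' : SimpleGraph (Fin n), F' ≤ H ∧ F'.edgeSet.ncard = S.card ∧
      ((Finset.univ : Finset (Equiv.Perm (Fin n))).filter (fun σ =>
        (S : Set (Sym2 (Fin n))) ⊆ (H.map σ.toEmbedding).edgeSet)).card
        ≤ H.labelledCopyCount F' := by
  set T := (Finset.univ : Finset (Equiv.Perm (Fin n))).filter (fun σ =>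
        (S : Set (Sym2 (Fin n))) ⊆ (H.map σ.toEmbedding).edgeSet) with hT
  -- the pull-back of `S` along `σ0`
  let F' : SimpleGraph (Fin n) :=
    { Adj := fun a b => s(σ0 a, σ0 b) ∈ S
      symm := ⟨fun a b h => by rw [Sym2.eq_swap]; exact h⟩
      loopless := ⟨fun a h => by
        have h1 := hσ0' h
        rw [SimpleGraph.mem_edgeSet] at h1
        exact (H.map σ0.toEmbedding).irrefl h1⟩ }
  have hF'adj : ∀ a b, F'.Adj a b ↔ s(σ0 a, σ0 b) ∈ S := fun a b => Iff.rfl
  have hF'H : F' ≤ H := by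
    intro a b hab
    have h3 := hσ0' ((hF'adj a b).mp hab)
    rw [SimpleGraph.mem_edgeSet, map_perm_adj] at h3
    simpa using h3
  have himg : (Sym2.map σ0) '' F'.edgeSet = (S : Set (Sym2 (Fin n))) := by
    ext e
    constructor
    · rintro ⟨e', he', rfl⟩
      induction e' using Sym2.ind with
      | _ a b =>
        rw [SimpleGraph.mem_edgeSet] at he'
        simpa using (hF'adj a b).mp he'
    · intro he
      induction e using Sym2.ind with
      | _ x y =>
        refine ⟨s(σ0.symm x, σ0.symm y), ?_, by simp⟩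
        rw [SimpleGraph.mem_edgeSet, hF'adj]
        simpa using he
  have hcard : F'.edgeSet.ncard = S.card := by
    rw [← Set.ncard_coe_finset S, ← himg]
    exact (Set.ncard_image_of_injective _ (Sym2.map.injective σ0.injective)).symm
  -- injection into the labelled copies of `F'` in `H`
  have hinj : T.card ≤ H.labelledCopyCount F' := by
    rw [labelled_eq_natCard, ← Nat.card_eq_finsetCard T]
    refine Nat.card_le_card_of_injective
      (fun σ : T => (⟨⟨fun a => σ.1.symm (σ0 a), fun {a b} hab => ?_⟩, ?_⟩ :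
        SimpleGraph.Copy F' H)) ?_
    · have hσ : (S : Set (Sym2 (Fin n))) ⊆ (H.map σ.1.toEmbedding).edgeSet :=
        (Finset.mem_filter.mp σ.2).2
      have h3 := hσ ((hF'adj a b).mp hab)
      rw [SimpleGraph.mem_edgeSet, map_perm_adj] at h3
      exact h3
    · intro a b hab
      exact σ0.injective (σ.1.symm.injective hab)
    · intro σ τ hστ
      apply Subtype.ext
      have h1 : ∀ a, σ.1.symm (σ0 a) = τ.1.symm (σ0 a) := by
        intro a
        have := congrArg (fun f : SimpleGraph.Copy F' H => f a) hστ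
        exact this
      have h2 : σ.1.symm = τ.1.symm := by
        ext x
        have := h1 (σ0.symm x)
        simpa using congrArg Fin.val this
      have h3 := congrArg Equiv.symm h2
      simpa using h3
  exact ⟨F', hF'H, hcard, hinj⟩

open scoped Classical in
/-- The number of permutations `σ` with `S ⊆ E(σ H)` for a host of maximum degree at most `D`. -/
theorem perm_count_le_bd {n : ℕ} (H : SimpleGraph (Fin n)) (D : ℕ)
    (hD : ∀ v, (H.neighborSet v).ncard ≤ D) (q : ℝ) (hq0 : 0 ≤ q)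
    (hyp : ∀ F : SimpleGraph (Fin n), F ≤ H →
      1 / 2 ≤ ((⊤ : SimpleGraph (Fin n)).copyCount F : ℝ) * q ^ F.edgeSet.ncard)
    (S : Finset (Sym2 (Fin n))) :
    (((Finset.univ : Finset (Equiv.Perm (Fin n))).filter (fun σ =>
        (S : Set (Sym2 (Fin n))) ⊆ (H.map σ.toEmbedding).edgeSet)).card : ℝ)
      ≤ (n.factorial : ℝ) * (178 * (D : ℝ) * q) ^ S.card := by
  have hnn : (0 : ℝ) ≤ (n.factorial : ℝ) * (178 * (D : ℝ) * q) ^ S.card := by positivity
  rcases ((Finset.univ : Finset (Equiv.Perm (Fin n))).filter (fun σ =>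
        (S : Set (Sym2 (Fin n))) ⊆ (H.map σ.toEmbedding).edgeSet)).eq_empty_or_nonempty
    with h0 | ⟨σ0, hσ0⟩
  · rw [h0]
    simpa using hnn
  · obtain ⟨F', -, hcard, hinj⟩ :=
      perm_count_le_labelled H S σ0 (Finset.mem_filter.mp hσ0).2
    have hq'0 : 0 ≤ min 1 (2 * q) := le_min zero_le_one (by positivity)
    have hlab := Vale.Agent.Lib.P064B.bounded_degree_labelled H D hD (min 1 (2 * q)) hq'0
      (hyp_double H q hq0 hyp) F'
    rw [labelled_top, Fintype.card_fin, Nat.descFactorial_self, hcard] at hlab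
    have hD0 : (0 : ℝ) ≤ (D : ℝ) := Nat.cast_nonneg D
    have h5 : min 1 (89 * (D : ℝ) * min 1 (2 * q)) ≤ 178 * (D : ℝ) * q := by
      refine le_trans (min_le_right _ _) ?_
      have h7 : min 1 (2 * q) ≤ 2 * q := min_le_right _ _
      have h8 : 89 * (D : ℝ) * min 1 (2 * q) ≤ 89 * (D : ℝ) * (2 * q) :=
        mul_le_mul_of_nonneg_left h7 (by positivity)
      linarith
    have h6 : (0 : ℝ) ≤ min 1 (89 * (D : ℝ) * min 1 (2 * q)) :=
      le_min zero_le_one (by positivity)
    calc ((((Finset.univ : Finset (Equiv.Perm (Fin n))).filter (fun σ =>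
            (S : Set (Sym2 (Fin n))) ⊆ (H.map σ.toEmbedding).edgeSet)).card : ℕ) : ℝ)
        ≤ (H.labelledCopyCount F' : ℝ) := by exact_mod_cast hinj
      _ ≤ (n.factorial : ℝ) * (min 1 (89 * (D : ℝ) * min 1 (2 * q))) ^ S.card := hlab
      _ ≤ (n.factorial : ℝ) * (178 * (D : ℝ) * q) ^ S.card :=
          mul_le_mul_of_nonneg_left (pow_le_pow_left₀ h6 h5 _) (Nat.cast_nonneg _)

/-- Families generated by the copies of a graph of maximum degree at most `D` (`D ≥ 1`). -/
theorem bounded_degree_family {n : ℕ} (H : SimpleGraph (Fin n)) (D : ℕ) (hD1 : 1 ≤ D)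
    (hD : ∀ v, (H.neighborSet v).ncard ≤ D)
    (F : Finset (Finset (Sym2 (Fin n))))
    (hF1 : ∀ W ∈ F, ∃ σ : Equiv.Perm (Fin n),
      (H.map σ.toEmbedding).edgeSet ⊆ (W : Set (Sym2 (Fin n))))
    (hF2 : ∀ σ : Equiv.Perm (Fin n), ∃ W ∈ F,
      (W : Set (Sym2 (Fin n))) = (H.map σ.toEmbedding).edgeSet)
    (p : ℝ) (hp0 : 0 ≤ p) (g : Finset (Sym2 (Fin n)) → ℝ) (hg : IsFracCover g F)
    (hcost : fracCost p g ≤ 1 / 2) :
    ∃ G : Finset (Finset (Sym2 (Fin n))), Covers G F ∧ cost (p / (178 * (D : ℝ))) G ≤ 1 / 2 := by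
  have hDpos : (0 : ℝ) < (D : ℝ) := by exact_mod_cast hD1
  exact family_of_count H (178 * (D : ℝ)) (by positivity)
    (fun q hq0 hyp S => perm_count_le_bd H D hD q hq0 hyp S) F hF1 hF2 p hp0 g hg hcost

end Vale.Agent.Lib.P034G
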