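import Vale.Agent.Lib.P034G.PermCount

/-!
P034 for the families generated by the copies of a star forest: the edge sets of the images of a
graph `F0` under the permutations of the vertices, and their number.
-/

namespace Vale.Agent.Lib.P034G

open Finset

theorem edgeSet_map_perm {n : ℕ} (F0 : SimpleGraph (Fin n)) (σ : Equiv.Perm (Fin n)) :
    (F0.map σ.toEmbedding).edgeSet = Sym2.map σ '' F0.edgeSet := by
  ext e
  induction e using Sym2.ind with
  | _ x y =>
    rw [SimpleGraph.mem_edgeSet, map_perm_adj]
    constructor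
    · intro h
      exact ⟨s(σ.symm x, σ.symm y), h, by simp⟩
    · rintro ⟨e', he', heq⟩
      induction e' using Sym2.ind with
      | _ a b =>
        rw [SimpleGraph.mem_edgeSet] at he'
        rw [Sym2.map_mk, Sym2.eq_iff] at heq
        rcases heq with ⟨rfl, rfl⟩ | ⟨rfl, rfl⟩
        · simpa using he'
        · simpa using he'.symm

/-- L2: the edge sets of the copies of `F0` in the complete graph. -/
theorem copies_cover {n : ℕ} (F0 : SimpleGraph (Fin n)) :
    ∃ G : Finset (Finset (Sym2 (Fin n))),
      (∀ σ : Equiv.Perm (Fin n), ∃ S ∈ G,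
        (S : Set (Sym2 (Fin n))) = (F0.map σ.toEmbedding).edgeSet) ∧
      (∀ S ∈ G, S.card = F0.edgeSet.ncard) ∧
      G.card ≤ (⊤ : SimpleGraph (Fin n)).copyCount F0 := by
  classical
  let E : Equiv.Perm (Fin n) → Finset (Sym2 (Fin n)) :=
    fun σ => (Set.toFinite (F0.map σ.toEmbedding).edgeSet).toFinset
  have hE : ∀ σ, (E σ : Set (Sym2 (Fin n))) = (F0.map σ.toEmbedding).edgeSet :=
    fun σ => Set.Finite.coe_toFinset _
  have hEmem : ∀ σ (a b : Fin n), s(a, b) ∈ E σ ↔ F0.Adj (σ.symm a) (σ.symm b) := by
    intro σ a b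
    rw [← Finset.mem_coe, hE σ, SimpleGraph.mem_edgeSet, map_perm_adj]
  refine ⟨Finset.univ.image E, ?_, ?_, ?_⟩
  · intro σ
    exact ⟨E σ, Finset.mem_image_of_mem _ (Finset.mem_univ _), hE σ⟩
  · intro S hS
    obtain ⟨σ, -, rfl⟩ := Finset.mem_image.mp hS
    rw [← Set.ncard_coe_finset, hE σ, edgeSet_map_perm]
    exact Set.ncard_image_of_injective _ (Sym2.map.injective σ.injective)
  · rw [SimpleGraph.copyCount]
    let f : Finset (Sym2 (Fin n)) → (⊤ : SimpleGraph (Fin n)).Subgraph := fun S =>
      { verts := Set.univ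
        Adj := fun a b => s(a, b) ∈ S ∧ a ≠ b
        adj_sub := fun {a b} h => by
          rw [SimpleGraph.top_adj]
          exact h.2
        edge_vert := fun {a b} _ => Set.mem_univ _
        symm := ⟨fun a b h => ⟨by rw [Sym2.eq_swap]; exact h.1, h.2.symm⟩⟩ }
    have hfadj : ∀ S a b, (f S).Adj a b ↔ s(a, b) ∈ S ∧ a ≠ b := fun S a b => Iff.rfl
    apply Finset.card_le_card_of_injOn f
    · intro S hS
      obtain ⟨σ, -, rfl⟩ := Finset.mem_image.mp (Finset.mem_coe.mp hS)
      simp only [Finset.coe_filter, Finset.mem_univ, true_and, Set.mem_ofPred_eq]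
      refine ⟨⟨⟨fun a => ⟨σ a, Set.mem_univ _⟩, fun x => σ.symm x.1, ?_, ?_⟩, ?_⟩⟩
      · intro a
        simp
      · intro x
        apply Subtype.ext
        simp
      · intro a b
        change (f (E σ)).Adj (σ a) (σ b) ↔ F0.Adj a b
        rw [hfadj, hEmem]
        constructor
        · intro h
          simpa using h.1
        · intro h
          refine ⟨by simpa using h, ?_⟩
          intro hab
          exact F0.ne_of_adj h (σ.injective hab)
    · intro S hS S' hS' hEq
      obtain ⟨σ, -, rfl⟩ := Finset.mem_image.mp (Finset.mem_coe.mp hS)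
      obtain ⟨τ, -, rfl⟩ := Finset.mem_image.mp (Finset.mem_coe.mp hS')
      have key : ∀ (σ τ : Equiv.Perm (Fin n)), f (E σ) = f (E τ) → E σ ⊆ E τ := by
        intro σ τ h e he
        induction e using Sym2.ind with
        | _ a b =>
          have h1 : F0.Adj (σ.symm a) (σ.symm b) := (hEmem σ a b).mp he
          have hne : a ≠ b := by
            intro hab
            rw [hab] at h1
            exact F0.irrefl h1
          have h2 : (f (E σ)).Adj a b := (hfadj _ a b).mpr ⟨he, hne⟩
          rw [h] at h2
          exact ((hfadj _ a b).mp h2).1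
      exact Finset.Subset.antisymm (key σ τ hEq) (key τ σ hEq.symm)

end Vale.Agent.Lib.P034G
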