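import Vale.Agent.Lib.P034G.CopiesCover

/-!
P034 for the families generated by the copies of a star forest: assembly.
-/

namespace Vale.Agent.Lib.P034G

open Finset
open Vale.Agent.Results.P034.NestedIntersections (Covers cost IsFracCover fracCost)
open Vale.Agent.Lib.P064T (IsStarForest)

theorem star_forest_family {n : ℕ} (H : SimpleGraph (Fin n)) (hH : IsStarForest H)
    (F : Finset (Finset (Sym2 (Fin n))))
    (hF1 : ∀ W ∈ F, ∃ σ : Equiv.Perm (Fin n),
      (H.map σ.toEmbedding).edgeSet ⊆ (W : Set (Sym2 (Fin n))))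
    (hF2 : ∀ σ : Equiv.Perm (Fin n), ∃ W ∈ F,
      (W : Set (Sym2 (Fin n))) = (H.map σ.toEmbedding).edgeSet)
    (p : ℝ) (hp0 : 0 ≤ p) (g : Finset (Sym2 (Fin n)) → ℝ) (hg : IsFracCover g F)
    (hcost : fracCost p g ≤ 1 / 2) :
    ∃ G : Finset (Finset (Sym2 (Fin n))), Covers G F ∧ cost (p / 2000) G ≤ 1 / 2 := by
  classical
  set q : ℝ := p / 2000 with hq
  have hq0 : 0 ≤ q := by positivity
  by_cases hcase : ∀ F0 : SimpleGraph (Fin n), F0 ≤ H →
      1 / 2 ≤ ((⊤ : SimpleGraph (Fin n)).copyCount F0 : ℝ) * q ^ F0.edgeSet.ncard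
  · -- averaging over all permutations: contradiction
    exfalso
    choose Wσ hWσ hWσeq using hF2
    have h1 : ∀ σ : Equiv.Perm (Fin n), (1 : ℝ) ≤ ∑ S ∈ (Wσ σ).powerset, g S :=
      fun σ => hg.2 (Wσ σ) (hWσ σ)
    have h2 : ∀ σ : Equiv.Perm (Fin n),
        ∑ S ∈ (Wσ σ).powerset, g S
          = ∑ S : Finset (Sym2 (Fin n)),
              if (S : Set (Sym2 (Fin n))) ⊆ (H.map σ.toEmbedding).edgeSet then g S else 0 := by
      intro σ
      rw [← Finset.sum_filter]
      apply Finset.sum_congr _ (fun _ _ => rfl)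
      ext S
      simp only [Finset.mem_powerset, Finset.mem_filter, Finset.mem_univ, true_and]
      rw [← hWσeq σ]
      exact Finset.coe_subset.symm
    have h3 : ((Finset.univ : Finset (Equiv.Perm (Fin n))).card : ℝ)
        ≤ ∑ σ : Equiv.Perm (Fin n), ∑ S : Finset (Sym2 (Fin n)),
            if (S : Set (Sym2 (Fin n))) ⊆ (H.map σ.toEmbedding).edgeSet then g S else 0 := by
      rw [Finset.card_eq_sum_ones, Nat.cast_sum]
      apply Finset.sum_le_sum
      intro σ _
      rw [← h2 σ]
      simpa using h1 σ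
    rw [Finset.sum_comm] at h3
    have h4 : ∀ S : Finset (Sym2 (Fin n)),
        (∑ σ : Equiv.Perm (Fin n),
          if (S : Set (Sym2 (Fin n))) ⊆ (H.map σ.toEmbedding).edgeSet then g S else 0)
          ≤ (n.factorial : ℝ) * (g S * p ^ S.card) := by
      intro S
      rw [← Finset.sum_filter, Finset.sum_const, nsmul_eq_mul]
      have h5 := perm_count_le H hH q hq0 hcase S
      have h6 : (2000 : ℝ) * q = p := by rw [hq]; ring
      rw [h6] at h5
      have hg0 : 0 ≤ g S := (hg.1 S).1
      calc ((Finset.univ.filter (fun σ : Equiv.Perm (Fin n) =>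
              (S : Set (Sym2 (Fin n))) ⊆ (H.map σ.toEmbedding).edgeSet)).card : ℝ) * g S
          ≤ ((n.factorial : ℝ) * p ^ S.card) * g S := mul_le_mul_of_nonneg_right h5 hg0
        _ = (n.factorial : ℝ) * (g S * p ^ S.card) := by ring
    have h7 : ((Finset.univ : Finset (Equiv.Perm (Fin n))).card : ℝ)
        ≤ (n.factorial : ℝ) * fracCost p g := by
      refine le_trans h3 ?_
      unfold fracCost
      rw [Finset.mul_sum]
      exact Finset.sum_le_sum (fun S _ => h4 S)
    rw [Finset.card_univ, Fintype.card_perm, Fintype.card_fin] at h7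
    have hpos : (0 : ℝ) < (n.factorial : ℝ) := by exact_mod_cast n.factorial_pos
    nlinarith
  · -- some `F0 ≤ H` has few expected copies: its copies form a cheap cover
    simp only [not_forall, not_le] at hcase
    obtain ⟨F0, hF0, hlt⟩ := hcase
    obtain ⟨G, hG1, hG2, hG3⟩ := copies_cover F0
    refine ⟨G, ?_, ?_⟩
    · intro W hW
      obtain ⟨σ, hσ⟩ := hF1 W hW
      obtain ⟨S, hS, hSeq⟩ := hG1 σ
      refine ⟨S, hS, ?_⟩
      rw [← Finset.coe_subset, hSeq]
      refine subset_trans ?_ hσ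
      exact SimpleGraph.edgeSet_subset_edgeSet.mpr (SimpleGraph.map_monotone _ hF0)
    · unfold cost
      rw [Finset.sum_congr rfl (fun S hS => by rw [hG2 S hS]), Finset.sum_const, nsmul_eq_mul]
      have hq' : 0 ≤ q ^ F0.edgeSet.ncard := pow_nonneg hq0 _
      have hc : (G.card : ℝ) ≤ ((⊤ : SimpleGraph (Fin n)).copyCount F0 : ℝ) := by
        exact_mod_cast hG3
      nlinarith
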