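import Vale.Agent.Results.P034.NestedIntersections
import Vale.Agent.Lib.Helper7.P064T6
import Vale.Agent.Lib.P064T.ForestCount

/-!
P034 for the families generated by the copies of a star forest: the number of permutations
`σ` of the vertices with `S ⊆ E(σ H)`.
-/

namespace Vale.Agent.Lib.P034G

open Finset
open Vale.Agent.Lib.P064T (IsStarForest)
open Vale.Agent.Lib.Helper7.P064M

theorem map_perm_adj {n : ℕ} (H : SimpleGraph (Fin n)) (σ : Equiv.Perm (Fin n)) (x y : Fin n) :
    (H.map σ.toEmbedding).Adj x y ↔ H.Adj (σ.symm x) (σ.symm y) := by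
  rw [SimpleGraph.map_adj]
  constructor
  · rintro ⟨a, b, hab, rfl, rfl⟩
    simpa using hab
  · intro h
    exact ⟨σ.symm x, σ.symm y, h, by simp, by simp⟩

open scoped Classical in
/-- L1: the number of permutations `σ` with `S ⊆ E(σ H)`. -/
theorem perm_count_le {n : ℕ} (H : SimpleGraph (Fin n)) (hH : IsStarForest H) (q : ℝ) (hq0 : 0 ≤ q)
    (hyp : ∀ F : SimpleGraph (Fin n), F ≤ H →
      1 / 2 ≤ ((⊤ : SimpleGraph (Fin n)).copyCount F : ℝ) * q ^ F.edgeSet.ncard)
    (S : Finset (Sym2 (Fin n))) :
    (((Finset.univ : Finset (Equiv.Perm (Fin n))).filter (fun σ =>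
        (S : Set (Sym2 (Fin n))) ⊆ (H.map σ.toEmbedding).edgeSet)).card : ℝ)
      ≤ (n.factorial : ℝ) * (2000 * q) ^ S.card := by
  set T := (Finset.univ : Finset (Equiv.Perm (Fin n))).filter (fun σ =>
        (S : Set (Sym2 (Fin n))) ⊆ (H.map σ.toEmbedding).edgeSet) with hT
  have hnn : (0 : ℝ) ≤ (n.factorial : ℝ) * (2000 * q) ^ S.card := by positivity
  rcases T.eq_empty_or_nonempty with h0 | ⟨σ0, hσ0⟩
  · rw [h0]
    simpa using hnn
  · have hσ0' : (S : Set (Sym2 (Fin n))) ⊆ (H.map σ0.toEmbedding).edgeSet :=
      (Finset.mem_filter.mp hσ0).2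
    -- the pull-back of `S` along `σ0`
    let F' : SimpleGraph (Fin n) :=
      { Adj := fun a b => s(σ0 a, σ0 b) ∈ S
        symm := ⟨fun a b h => by rw [Sym2.eq_swap]; exact h⟩
        loopless := ⟨fun a h => by
          have h1 := hσ0' h
          rw [SimpleGraph.mem_edgeSet] at h1
          exact (H.map σ0.toEmbedding).irrefl h1⟩ }
    have hF'adj : ∀ a b, F'.Adj a b ↔ s(σ0 a, σ0 b) ∈ S := fun a b => Iff.rfl
    have hF'H : F' ≤ H := by
      intro a b hab
      have h3 := hσ0' ((hF'adj a b).mp hab)
      rw [SimpleGraph.mem_edgeSet, map_perm_adj] at h3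
      simpa using h3
    have himg : (Sym2.map σ0) '' F'.edgeSet = (S : Set (Sym2 (Fin n))) := by
      ext e
      constructor
      · rintro ⟨e', he', rfl⟩
        induction e' using Sym2.ind with
        | _ a b =>
          rw [SimpleGraph.mem_edgeSet] at he'
          simpa using (hF'adj a b).mp he'
      · intro he
        induction e using Sym2.ind with
        | _ x y =>
          refine ⟨s(σ0.symm x, σ0.symm y), ?_, by simp⟩
          rw [SimpleGraph.mem_edgeSet, hF'adj]
          simpa using he
    have hcard : F'.edgeSet.ncard = S.card := by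
      rw [← Set.ncard_coe_finset S, ← himg]
      exact (Set.ncard_image_of_injective _ (Sym2.map.injective σ0.injective)).symm
    -- injection into the labelled copies of `F'` in `H`
    have hinj : T.card ≤ H.labelledCopyCount F' := by
      rw [labelled_eq_natCard, ← Nat.card_eq_finsetCard T]
      refine Nat.card_le_card_of_injective
        (fun σ : T => (⟨⟨fun a => σ.1.symm (σ0 a), fun {a b} hab => ?_⟩, ?_⟩ :
          SimpleGraph.Copy F' H)) ?_
      · have hσ : (S : Set (Sym2 (Fin n))) ⊆ (H.map σ.1.toEmbedding).edgeSet :=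
          (Finset.mem_filter.mp σ.2).2
        have h3 := hσ ((hF'adj a b).mp hab)
        rw [SimpleGraph.mem_edgeSet, map_perm_adj] at h3
        exact h3
      · intro a b hab
        exact σ0.injective (σ.1.symm.injective hab)
      · intro σ τ hστ
        apply Subtype.ext
        have h1 : ∀ a, σ.1.symm (σ0 a) = τ.1.symm (σ0 a) := by
          intro a
          have := congrArg (fun f : SimpleGraph.Copy F' H => f a) hστ
          exact this
        have h2 : σ.1.symm = τ.1.symm := by
          ext x
          have := h1 (σ0.symm x)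
          simpa using congrArg Fin.val this
        have h3 := congrArg Equiv.symm h2
        simpa using h3
    have hq'0 : 0 ≤ min 1 (2 * q) := le_min zero_le_one (by positivity)
    have hlab := forest_labelled_of F' H
      (Vale.Agent.Lib.P064T.forest_count F' H (hH.mono hF'H)) (min 1 (2 * q)) hq'0
      (hyp_double H q hq0 hyp)
    rw [labelled_top, Fintype.card_fin, Nat.descFactorial_self, hcard] at hlab
    have h5 : min 1 (1000 * min 1 (2 * q)) ≤ 2000 * q :=
      le_trans (min_double_le q) (min_le_right _ _)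
    have h6 : (0 : ℝ) ≤ min 1 (1000 * min 1 (2 * q)) := le_min zero_le_one (by positivity)
    calc (T.card : ℝ) ≤ (H.labelledCopyCount F' : ℝ) := by exact_mod_cast hinj
      _ ≤ (n.factorial : ℝ) * (min 1 (1000 * min 1 (2 * q))) ^ S.card := hlab
      _ ≤ (n.factorial : ℝ) * (2000 * q) ^ S.card :=
          mul_le_mul_of_nonneg_left (pow_le_pow_left₀ h6 h5 _) (Nat.cast_nonneg _)

end Vale.Agent.Lib.P034G
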